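import Crest.Agent.R166.T.Star

/-! Row 166, block T: the tree at small disorder. -/

set_option autoImplicit false

open MeasureTheory ProbabilityTheory Filter Topology Complex
open scoped ENNReal NNReal BigOperators

noncomputable section

namespace Crest.Agent.R166

variable {q : ℕ} {π : Measure II} [IsProbabilityMeasure π] {s κ : ℝ}

theorem t_psi_tendsto {n : ℕ} (s E : ℝ) (a : II) {Y : ℕ → Fin n → ℂ} {Y' : Fin n → ℂ}
    (h : ∀ i, Tendsto (fun k => Y k i) atTop (𝓝 (Y' i))) (hY : ∀ i, 0 < (Y' i).im) (i : Fin n) :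
    Tendsto (fun k => Psi s (zk E k) a (Y k)) atTop (𝓝 (Psi s E a Y')) := by
  unfold Psi
  refine ((((t_zk_tendsto E).sub_const _).add (tendsto_finsetSum _ fun j _ => h j)).inv₀ fun e => ?_).neg
  have h := (hY i).trans_le (t_den_im s (z := E) (by simp) a hY i)
  rw [e] at h
  simp at h

theorem t_meas_mB (h0 : StT0) (hs : 0 ≤ s) (hs1 : s ≤ 1) (E : ℝ) : Measurable (mB (q := q) s E) :=
  (StronglyMeasurable.limUnder fun k =>
    (t_meas_mT (q := q) h0 hs hs1 (t_zk_pos E k)).stronglyMeasurable).measurable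

theorem t_star_lim (h0 : StT0) (c0 : StC0) (hq : 2 ≤ q) (hκ : 0 < κ) (hs : 0 ≤ s) (hs1 : s ≤ 1)
    {B K : ℝ} {k₀ : ℕ} (hK0 : 0 ≤ K) (hB : THyp q π s κ B) (hK : TTwo q π s κ K k₀) {ε : ℝ} (hε : 0 < ε) :
    ∃ k₁ : ℕ, ∀ E : ℝ, Bulk q κ E → ∀ k, k₁ ≤ k →
      ∫⁻ e, ‖tG s E k e - Psi s E e.1 fun i => mB s E (e.2 i)‖ₑ ∂starLaw q π ≤ ENNReal.ofReal ε := by
  obtain ⟨k₁, h⟩ := t_star_cauchy h0 c0 hq hκ hs hs1 hK0 hB hK hε
  refine ⟨k₁, fun E hb k hk => ?_⟩
  have h1 := ae_all_iff.2 fun i : Fin (q + 1) => (t_star_eval (π := π) i).quasiMeasurePreserving.ae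
    (t_conv h0 c0 hq hκ hs hs1 hB hK hb)
  have h2 : ∀ᵐ e ∂starLaw q π, ‖tG s E k e - Psi s E e.1 fun i => mB s E (e.2 i)‖ₑ =
      liminf (fun l => ‖tG s E k e - tG s E l e‖ₑ) atTop := by
    filter_upwards [h1] with e he
    exact ((t_psi_tendsto s E e.1 (fun i => (he i).1) (fun i => (he i).2) 0).const_sub
      (tG s E k e)).enorm.liminf_eq.symm
  rw [lintegral_congr_ae h2]
  refine (lintegral_liminf_le fun l =>
    ((t_meas_tG h0 hs hs1 E k).sub (t_meas_tG h0 hs hs1 E l)).enorm).trans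
    (liminf_le_of_frequently_le' ((eventually_ge_atTop k₁).mono fun l hl => ?_).frequently)
  simp only [← ofReal_norm, Pi.sub_apply]
  have hi : Integrable (fun e => ‖tG s E k e - tG s E l e‖) (starLaw q π) :=
    ((t_int_tG h0 hs hs1 E k).sub (t_int_tG h0 hs hs1 E l)).norm
  rw [← ofReal_integral_eq_lintegral_ofReal hi (Eventually.of_forall fun x => norm_nonneg _)]
  exact ENNReal.ofReal_le_ofReal (h E hb k l hk hl)

theorem t_star_int (h0 : StT0) (c0 : StC0) (hq : 2 ≤ q) (hκ : 0 < κ) (hs : 0 ≤ s) (hs1 : s ≤ 1)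
    {B K : ℝ} {k₀ : ℕ} (hK0 : 0 ≤ K) (hB : THyp q π s κ B) (hK : TTwo q π s κ K k₀) {E : ℝ}
    (hb : Bulk q κ E) :
    Integrable (fun e : SEnv q => Psi s E e.1 fun i => mB s E (e.2 i)) (starLaw q π) := by
  obtain ⟨k, h⟩ := t_star_lim h0 c0 hq hκ hs hs1 hK0 hB hK one_pos
  have h1 : Integrable (fun e : SEnv q => tG s E k e - Psi s E e.1 fun i => mB s E (e.2 i))
      (starLaw q π) :=
    ⟨((t_meas_tG h0 hs hs1 E k).sub (t_meas_star s E (t_meas_mB h0 hs hs1 E))).aestronglyMeasurable,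
      (h E hb k le_rfl).trans_lt ENNReal.ofReal_lt_top⟩
  simpa using (t_int_tG h0 hs hs1 E k).sub' h1

theorem t_ok (h0 : StT0) (hE : StEnv) (c0 : StC0) (hq : 2 ≤ q) (hκ : 0 < κ) (hs : 0 ≤ s) (hs1 : s ≤ 1)
    {B K : ℝ} {k₀ : ℕ} (hK0 : 0 ≤ K) (hB : THyp q π s κ B) (hK : TTwo q π s κ K k₀) {E : ℝ}
    (hb : Bulk q κ E) : TreeOK q π s E := by
  have h1 := t_conv h0 c0 hq hκ hs hs1 hB hK hb
  have hi : Integrable (fun e : SEnv q => (Psi s E e.1 fun i => mB s E (e.2 i)).im) (starLaw q π) :=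
    (t_star_int h0 c0 hq hκ hs hs1 hK0 hB hK hb).im
  refine ⟨t_meas_mB h0 hs hs1 E, h1.mono fun β h => h.2, h1.mono fun β h => h.1, ?_, hi, ?_⟩
  · filter_upwards [h1, ae_all_iff.2 fun j : Fin q => (t_child hE j).quasiMeasurePreserving.ae h1]
      with β h h'
    refine tendsto_nhds_unique h.1 ?_
    refine (t_psi_tendsto s E (β []) (fun j => (h' j).1) (fun j => (h' j).2) ⟨0, by omega⟩).congr
      fun k => ?_
    exact (((h0 q s hs hs1).1 _ (t_zk_pos E k)).2.2 β).2.2.symm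
  · have h2 : ∀ᵐ e ∂starLaw q π, 0 < (Psi s E e.1 fun i => mB s E (e.2 i)).im := by
      filter_upwards [ae_all_iff.2 fun i : Fin (q + 1) =>
        (t_star_eval (π := π) i).quasiMeasurePreserving.ae h1] with e he
      exact t_psi_im s (z := E) (by simp) e.1 (fun i => (he i).2) 0
    refine div_pos ?_ Real.pi_pos
    rw [integral_pos_iff_support_of_nonneg_ae (h2.mono fun e he => he.le) hi]
    refine lt_of_lt_of_eq ?_
      (measure_congr (t := Set.univ) (eventuallyEq_univ.2 (h2.mono fun e he => he.ne'))).symm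
    simp

theorem t_unif (h0 : StT0) (c0 : StC0) (hq : 2 ≤ q) (hκ : 0 < κ) (hs : 0 ≤ s) (hs1 : s ≤ 1)
    {B K : ℝ} {k₀ : ℕ} (hK0 : 0 ≤ K) (hB : THyp q π s κ B) (hK : TTwo q π s κ K k₀) :
    TendstoUniformlyOn (fun k E => (gbar q π s (zk E k)).im / Real.pi) (rho q π s) atTop
      {E | Bulk q κ E} := by
  rw [Metric.tendstoUniformlyOn_iff]
  intro ε hε
  obtain ⟨k₁, h⟩ := t_star_lim h0 c0 hq hκ hs hs1 hK0 hB hK hε
  filter_upwards [eventually_ge_atTop k₁] with k hk E hb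
  have i1 := t_int_tG (q := q) (π := π) h0 hs hs1 E k
  have i2 := t_star_int h0 c0 hq hκ hs hs1 hK0 hB hK hb
  have h1 := h E hb k hk
  have i3 : Integrable (fun e : SEnv q => tG s E k e - Psi s E e.1 fun i => mB s E (e.2 i))
      (starLaw q π) := i1.sub i2
  simp only [← ofReal_norm] at h1
  rw [← ofReal_integral_eq_lintegral_ofReal i3.norm (Eventually.of_forall fun x => norm_nonneg _),
    ENNReal.ofReal_le_ofReal_iff hε.le] at h1
  have h2 := (norm_integral_le_integral_norm _).trans h1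
  rw [integral_sub i1 i2] at h2
  have h3 := (abs_im_le_norm _).trans h2
  have e1 : gbar q π s (zk E k) = ∫ e, tG s E k e ∂starLaw q π := rfl
  have e2 : ∫ e : SEnv q, (Psi s E e.1 fun i => mB s E (e.2 i)).im ∂starLaw q π =
      (∫ e : SEnv q, Psi s E e.1 fun i => mB s E (e.2 i) ∂starLaw q π).im := integral_im i2
  rw [rho, e1, e2, Real.dist_eq, ← sub_div, abs_div, abs_of_pos Real.pi_pos, abs_sub_comm, ← sub_im,
    div_lt_iff₀ Real.pi_pos]
  nlinarith [Real.pi_gt_three]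

theorem stT (h0 : StT0) (hE : StEnv) (c0 : StC0) (c1 : StC1) (c2 : StC2) (c4 : StC4) : StT := by
  intro q κ hq hκ
  obtain ⟨s₁, C, hs₁, hs₁', hC, h1⟩ := t_small h0 hE c0 c1 hq hκ
  obtain ⟨x, B, hx, h2⟩ := t_hyp h0 hE c4 hq hκ
  obtain ⟨x', K, k₀, hx', hK0, h3⟩ := t_two h0 hE c0 c2 hq hκ
  refine ⟨min s₁ (min x' (min x x' / C)), C, by positivity, (min_le_left _ _).trans hs₁',
    fun s π _ hs hs₀ => ?_⟩
  have a1 : s ≤ s₁ := hs₀.trans (min_le_left _ _)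
  have hs1 : s ≤ 1 := a1.trans hs₁'
  have a2 : s ≤ x' := hs₀.trans ((min_le_right _ _).trans (min_le_left _ _))
  have a3 : C * s ^ 2 ≤ min x x' := by
    have := (le_div_iff₀ hC).1 (hs₀.trans ((min_le_right _ _).trans (min_le_right _ _)))
    nlinarith [mul_nonneg hs hC.le]
  have b1 := h1 s π hs a1
  have b2 : ∀ z : ℂ, 0 < z.im → z.im ≤ 1 → Bulk q κ z.re →
      ∫ β, hyp (mT s z β) ^ 2 ∂envLaw q π ≤ B := fun z hz hz1 hb =>
    h2 s π hs hs1 z hz hz1 hb ((b1 z hz hb).trans (a3.trans (min_le_left _ _)))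
  have hB : THyp q π s κ B := fun E hb k =>
    b2 _ (t_zk_pos E k) (t_zk_le E k) (by rwa [t_zk_re])
  have hK := h3 s π hs hs1 a2 fun z hz hb => (b1 z hz hb).trans (a3.trans (min_le_right _ _))
  refine ⟨fun E hb => t_ok h0 hE c0 hq hκ hs hs1 hK0 hB hK hb, b1, fun M => ?_,
    t_unif h0 c0 hq hκ hs hs1 hK0 hB hK⟩
  obtain ⟨B', h4⟩ := t_hyp_hi (q := q) (π := π) h0 hκ hs hs1 M
  refine ⟨max B B', fun z hz hM hb => ?_⟩
  rcases le_total z.im 1 with h | h
  · exact (b2 z hz h hb).trans (le_max_left _ _)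
  · exact (h4 z h hM hb).trans (le_max_right _ _)

end Crest.Agent.R166
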