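import Crest.Agent.R166.Iface

/-! Row 166, block T: the laws of the cavity functions are exact fixed points; measurability. -/

set_option autoImplicit false

open MeasureTheory ProbabilityTheory Filter Topology Complex
open scoped ENNReal NNReal BigOperators

noncomputable section

namespace Crest.Agent.R166

variable {q : ℕ} {π : Measure II} [IsProbabilityMeasure π] {s κ : ℝ} {z z' : ℂ}

instance t_prob_env : IsProbabilityMeasure (envLaw q π) := by unfold envLaw; infer_instance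

instance t_prob_star : IsProbabilityMeasure (starLaw q π) := by unfold starLaw; infer_instance

theorem t_meas_Psi {n : ℕ} (s : ℝ) (z : ℂ) :
    Measurable fun p : II × (Fin n → ℂ) => Psi s z p.1 p.2 := by
  unfold Psi
  fun_prop

theorem t_meas_uu (q : ℕ) (z : ℂ) : Measurable (uu q z) := by
  unfold uu
  fun_prop

theorem t_meas_hyp : Measurable hyp := by
  unfold hyp
  fun_prop

theorem t_fix (hE : StEnv) {X : Type} [MeasurableSpace X] {f : Env q → X} (hf : Measurable f)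
    {Φ : II × (Fin q → X) → X} (hΦ : Measurable Φ)
    (h : ∀ β, f β = Φ (β [], fun j => f (child β j))) :
    (π.prod (Measure.pi fun _ : Fin q => (envLaw q π).map f)).map Φ = (envLaw q π).map f := by
  have h1 := (hE q π).2.1
  have : IsProbabilityMeasure ((envLaw q π).map f) :=
    Measure.isProbabilityMeasure_map hf.aemeasurable
  have h2 : MeasurePreserving (Prod.map id fun (b : Fin q → Env q) j => f (b j))
      (π.prod (Measure.pi fun _ => envLaw q π))
      (π.prod (Measure.pi fun _ => (envLaw q π).map f)) :=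
    (MeasurePreserving.id π).prod (measurePreserving_pi _ _ fun _ => ⟨hf, rfl⟩)
  rw [← (h2.comp h1).map_eq, Measure.map_map hΦ (h2.comp h1).measurable]
  congr 1
  funext β
  exact (h β).symm

theorem t_child (hE : StEnv) (j : Fin q) :
    MeasurePreserving (fun β : Env q => child β j) (envLaw q π) (envLaw q π) :=
  ((measurePreserving_eval (fun _ : Fin q => envLaw q π) j).comp measurePreserving_snd).comp
    (hE q π).2.1

theorem t_star_eval (i : Fin (q + 1)) :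
    MeasurePreserving (fun e : SEnv q => e.2 i) (starLaw q π) (envLaw q π) :=
  (measurePreserving_eval (fun _ : Fin (q + 1) => envLaw q π) i).comp measurePreserving_snd

section
variable (h0 : StT0) (hs : 0 ≤ s) (hs1 : s ≤ 1)
include h0 hs hs1

theorem t_meas_mT (hz : 0 < z.im) : Measurable (mT (q := q) s z) :=
  ((h0 q s hs hs1).1 z hz).2.1.measurable

theorem t_im_pos (hz : 0 < z.im) (β : Env q) : 0 < (mT s z β).im :=
  (((h0 q s hs hs1).1 z hz).2.2 β).1

theorem t_fix1 (hE : StEnv) (hz : 0 < z.im) :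
    T1 q π s z ((envLaw q π).map (mT s z)) = (envLaw q π).map (mT s z) :=
  t_fix hE (t_meas_mT h0 hs hs1 hz) (t_meas_Psi s z) fun β => (((h0 q s hs hs1).1 z hz).2.2 β).2.2

theorem t_fix2 (hE : StEnv) (hz : 0 < z.im) (hz' : 0 < z'.im) :
    T2 q π s z z' ((envLaw q π).map fun β => (mT s z β, mT s z' β)) =
      (envLaw q π).map fun β => (mT s z β, mT s z' β) := by
  refine t_fix hE ((t_meas_mT h0 hs hs1 hz).prodMk (t_meas_mT h0 hs hs1 hz'))
    (Φ := fun p => (Psi s z p.1 fun j => (p.2 j).1, Psi s z' p.1 fun j => (p.2 j).2)) ?_ fun β => ?_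
  · unfold Psi
    fun_prop
  · exact Prod.ext (((h0 q s hs hs1).1 z hz).2.2 β).2.2 (((h0 q s hs hs1).1 z' hz').2.2 β).2.2

/-- `hyp (mT z)` is bounded on compact sets of `z` -/
theorem t_hyp_bdd {η : ℝ} (M : ℝ) (hη : 0 < η) : ∃ B : ℝ, ∀ z : ℂ, η ≤ z.im → ‖z‖ ≤ M →
    ∀ β : Env q, hyp (mT s z β) ≤ B := by
  obtain ⟨c, C, hc, h⟩ := (h0 q s hs hs1).2 η M hη
  refine ⟨(1 + η⁻¹ ^ 2) / c, fun z h1 h2 β => ?_⟩
  have h3 := (((h0 q s hs hs1).1 z (hη.trans_le h1)).2.2 β).2.1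
  have h4 : ‖mT s z β‖ ≤ η⁻¹ := h3.trans (inv_anti₀ hη h1)
  unfold hyp
  gcongr
  exact (h z z h1 h1 h2 h2 β).1

end

theorem t_hyp_nonneg {Y : ℂ} (hY : 0 < Y.im) : 0 ≤ hyp Y := by
  unfold hyp
  positivity

theorem t_inv_le_hyp {Y : ℂ} (hY : 0 < Y.im) : Y.im⁻¹ ≤ hyp Y := by
  rw [hyp, inv_eq_one_div]
  gcongr
  exact le_add_of_nonneg_right (sq_nonneg _)

theorem t_int_hyp (h0 : StT0) (hs : 0 ≤ s) (hs1 : s ≤ 1) (hz : 0 < z.im) :
    Integrable (fun β => hyp (mT s z β) ^ 2) (envLaw q π) := by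
  obtain ⟨B, hB⟩ := t_hyp_bdd (q := q) h0 hs hs1 ‖z‖ hz
  refine Integrable.of_bound ((t_meas_hyp.comp (t_meas_mT h0 hs hs1 hz)).pow_const 2).aestronglyMeasurable
    (B ^ 2) (Eventually.of_forall fun β => ?_)
  rw [Real.norm_of_nonneg (sq_nonneg _)]
  exact pow_le_pow_left₀ (t_hyp_nonneg (t_im_pos h0 hs hs1 hz β)) (hB z le_rfl le_rfl β) 2

theorem t_zk_re (E : ℝ) (k : ℕ) : (zk E k).re = E := by
  simp only [zk, add_re, ofReal_re, mul_re, I_re, ofReal_im, I_im]
  ring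

theorem t_zk_im (E : ℝ) (k : ℕ) : (zk E k).im = 2⁻¹ ^ k := by
  simp only [zk, add_im, ofReal_re, mul_im, I_re, ofReal_im, I_im]
  ring

theorem t_zk_pos (E : ℝ) (k : ℕ) : 0 < (zk E k).im := by
  rw [t_zk_im]
  positivity

theorem t_zk_le (E : ℝ) (k : ℕ) : (zk E k).im ≤ 1 := by
  rw [t_zk_im]
  exact pow_le_one₀ (by norm_num) (by norm_num)

theorem t_zk_sub (E : ℝ) (k : ℕ) : ‖zk E k - E‖ = 2⁻¹ ^ k := by
  rw [zk, add_sub_cancel_left, norm_mul, norm_I, mul_one, norm_real, Real.norm_of_nonneg (by positivity)]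

theorem t_zk_dist (E : ℝ) (k l : ℕ) : ‖zk E k - zk E l‖ ≤ 2⁻¹ ^ k + 2⁻¹ ^ l := by
  rw [← t_zk_sub E k, ← t_zk_sub E l, norm_sub_rev (zk E l)]
  exact norm_sub_le_norm_sub_add_norm_sub _ _ _

theorem t_zk_tendsto (E : ℝ) : Tendsto (zk E) atTop (𝓝 E) := by
  rw [tendsto_iff_norm_sub_tendsto_zero]
  simp only [t_zk_sub]
  exact tendsto_pow_atTop_nhds_zero_of_lt_one (by norm_num) (by norm_num)

/-- second moments of `hyp` along `zk` -/
def THyp (q : ℕ) (π : Measure II) (s κ B : ℝ) : Prop :=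
  ∀ E, Bulk q κ E → ∀ k, ∫ β, hyp (mT s (zk E k) β) ^ 2 ∂envLaw q π ≤ B

/-- the Koenigs coordinates along `zk` are Cauchy in `L¹` -/
def TTwo (q : ℕ) (π : Measure II) (s κ K : ℝ) (k₀ : ℕ) : Prop :=
  ∀ E : ℝ, Bulk q κ E → ∀ k l, k₀ ≤ k → k₀ ≤ l →
    ∫ β, ‖uu q E (mT s (zk E k) β) - uu q E (mT s (zk E l) β)‖ ∂envLaw q π ≤ K * (2⁻¹ ^ k + 2⁻¹ ^ l)

end Crest.Agent.R166
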