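import Crest.Agent.R166.T.Fix

/-! Row 166, block T: smallness of the Koenigs coordinate (continuity argument in `Im z`), moments of `hyp`,
two-copy estimate. -/

set_option autoImplicit false

open MeasureTheory ProbabilityTheory Filter Topology Complex
open scoped ENNReal NNReal BigOperators

noncomputable section

namespace Crest.Agent.R166

variable {q : ℕ} {π : Measure II} [IsProbabilityMeasure π] {s κ : ℝ} {z z' : ℂ}

theorem t_int_bdd {X : Type} [MeasurableSpace X] {P : Measure X} [IsFiniteMeasure P] {f : X → ℂ}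
    (hf : Measurable f) {Λ : ℝ} (h : ∀ x, ‖f x‖ ≤ Λ) :
    Integrable (fun x => ‖f x‖) P ∧ Integrable (fun x => ‖f x‖ ^ 2) P :=
  ⟨Integrable.of_bound hf.norm.aestronglyMeasurable Λ
    (Eventually.of_forall fun x => by rw [norm_norm]; exact h x),
  Integrable.of_bound (hf.norm.pow_const 2).aestronglyMeasurable (Λ ^ 2)
    (Eventually.of_forall fun x => by
      rw [Real.norm_of_nonneg (sq_nonneg _)]; exact pow_le_pow_left₀ (norm_nonneg _) (h x) 2)⟩

/-- continuity in `η` of the second moment -/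
theorem t_cont (h0 : StT0) (c0 : StC0) (hq : 2 ≤ q) (hκ : 0 < κ) (hs : 0 ≤ s) (hs1 : s ≤ 1) {E : ℝ}
    (hE : Bulk q κ E) {a : ℝ} (ha : 0 < a) (b : ℝ) :
    ContinuousOn (fun η : ℝ => ∫ β, ‖uu q (E + η * I) (mT s (E + η * I) β)‖ ^ 2 ∂envLaw q π)
      (Set.Icc a b) := by
  obtain ⟨Λ, hΛ, hc, -⟩ := c0 q κ hq hκ
  obtain ⟨c, C, hc0, hT⟩ := (h0 q s hs hs1).2 a (|E| + |b|) ha
  have him : ∀ η : ℝ, ((E : ℂ) + η * I).im = η := fun η => by simp
  have hre : ∀ η : ℝ, Bulk q κ ((E : ℂ) + η * I).re := fun η => by simpa using hE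
  have hn : ∀ η ∈ Set.Icc a b, ‖(E : ℂ) + η * I‖ ≤ |E| + |b| := fun η hη => by
    refine (norm_add_le _ _).trans (add_le_add (by simp) ?_)
    rw [norm_mul, norm_I, mul_one, norm_real, Real.norm_of_nonneg (ha.le.trans hη.1)]
    exact hη.2.trans (le_abs_self b)
  have hp : ∀ η ∈ Set.Icc a b, 0 < ((E : ℂ) + η * I).im := fun η hη => by
    rw [him]; exact ha.trans_le hη.1
  refine continuousOn_of_dominated (bound := fun _ => Λ ^ 2) (fun η hη => ?_) (fun η hη => ?_)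
    (integrable_const _) (Eventually.of_forall fun β => ?_)
  · exact (((t_meas_uu q _).comp (t_meas_mT h0 hs hs1 (hp η hη))).norm.pow_const 2).aestronglyMeasurable
  · refine Eventually.of_forall fun β => ?_
    rw [Real.norm_of_nonneg (sq_nonneg _)]
    exact pow_le_pow_left₀ (norm_nonneg _)
      ((hc _ (hp η hη).le (hre η)).2.2.1 _ (t_im_pos h0 hs hs1 (hp η hη) β)) 2
  · refine (ContinuousOn.norm ?_).pow 2
    refine (LipschitzOnWith.of_dist_le' (K := √Λ * (|C| / c) + Λ) fun η hη η' hη' => ?_).continuousOn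
    have e : ‖((E : ℂ) + η * I) - (E + η' * I)‖ = dist η η' := by
      rw [add_sub_add_left_eq_sub, ← sub_mul, norm_mul, norm_I, mul_one, ← ofReal_sub, norm_real,
        dist_eq_norm]
    have p1 := t_im_pos (q := q) h0 hs hs1 (hp η hη) β
    have p2 := t_im_pos (q := q) h0 hs hs1 (hp η' hη') β
    obtain ⟨-, -, -, h1, -, h2⟩ := hc _ (hp η hη).le (hre η)
    have h3 := (h2 _ (hp η' hη').le (hre η')).2 _ p2
    have h4 := h1 _ _ p1 p2
    have a1 : a ≤ ((E : ℂ) + η * I).im := by rw [him]; exact hη.1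
    have a2 : a ≤ ((E : ℂ) + η' * I).im := by rw [him]; exact hη'.1
    obtain ⟨h5, h6⟩ := hT _ _ a1 a2 (hn η hη) (hn η' hη') β
    have h7 := (hT _ _ a2 a1 (hn η' hη') (hn η hη) β).1
    rw [e] at h3 h6
    have h8 : gam (mT s (E + η * I) β) (mT s (E + η' * I) β) ≤ (|C| / c * dist η η') ^ 2 := by
      rw [gam, div_mul_eq_mul_div, div_pow, sq c]
      gcongr
      exact h6.trans (mul_le_mul_of_nonneg_right (le_abs_self C) dist_nonneg)
    have h9 : ‖uu q (E + η * I) (mT s (E + η * I) β) - uu q (E + η * I) (mT s (E + η' * I) β)‖ ≤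
        √Λ * (|C| / c * dist η η') := by
      refine abs_le_of_sq_le_sq' ?_ (by positivity) |>.2
      rw [mul_pow, Real.sq_sqrt (by linarith)]
      exact h4.trans (mul_le_mul_of_nonneg_left h8 (by linarith))
    rw [dist_eq_norm]
    refine (norm_sub_le_norm_sub_add_norm_sub _ _ _).trans ((add_le_add h9 h3).trans (le_of_eq ?_))
    ring

theorem t_small (h0 : StT0) (hE : StEnv) (c0 : StC0) (c1 : StC1) (hq : 2 ≤ q) (hκ : 0 < κ) :
    ∃ s₁ C : ℝ, 0 < s₁ ∧ s₁ ≤ 1 ∧ 0 < C ∧ ∀ (s : ℝ) (π : Measure II) [IsProbabilityMeasure π],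
      0 ≤ s → s ≤ s₁ → ∀ z : ℂ, 0 < z.im → Bulk q κ z.re →
        ∫ β, ‖uu q z (mT s z β)‖ ^ 2 ∂envLaw q π ≤ C * s ^ 2 := by
  obtain ⟨x, C, hx, h1⟩ := c1 q κ hq hκ
  have hC : 0 < |C| + 1 := by positivity
  refine ⟨min 1 (x / (2 * (|C| + 1))), |C| + 1, by positivity, min_le_left _ _, hC,
    fun s π _ hs hs₀ z hz hb => ?_⟩
  have hs1 : s ≤ 1 := hs₀.trans (min_le_left _ _)
  have hs2 : s * (2 * (|C| + 1)) ≤ x := (le_div_iff₀ (by positivity)).1 (hs₀.trans (min_le_right _ _))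
  have hsx : s ≤ x := by nlinarith [abs_nonneg C]
  have hs3 : (|C| + 1) * s ^ 2 ≤ x / 2 := by nlinarith [mul_nonneg hs hC.le]
  -- the self-improvement for exact fixed points
  have key : ∀ w : ℂ, 0 < w.im → Bulk q κ w.re → ∫ β, ‖uu q w (mT s w β)‖ ^ 2 ∂envLaw q π ≤ x →
      ∫ β, ‖uu q w (mT s w β)‖ ^ 2 ∂envLaw q π ≤ (|C| + 1) * s ^ 2 := fun w hw hwb hle => by
    have hm := t_meas_mT (q := q) h0 hs hs1 hw
    have : IsProbabilityMeasure ((envLaw q π).map (mT s w)) :=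
      Measure.isProbabilityMeasure_map hm.aemeasurable
    have e : ∫ Y, ‖uu q w Y‖ ^ 2 ∂(envLaw q π).map (mT s w) =
        ∫ β, ‖uu q w (mT s w β)‖ ^ 2 ∂envLaw q π :=
      integral_map hm.aemeasurable ((t_meas_uu q w).norm.pow_const 2).aestronglyMeasurable
    have h2 := h1 w s 0 π ((envLaw q π).map (mT s w)) hw hwb hs hsx le_rfl zero_le_one
      ((ae_map_iff hm.aemeasurable (measurableSet_lt measurable_const measurable_im)).2
        (Eventually.of_forall (t_im_pos h0 hs hs1 hw)))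
      (e ▸ hle) (by rw [t_fix1 h0 hs hs1 hE hw]; simp) (by rw [t_fix1 h0 hs hs1 hE hw]; simp)
    rw [e, add_zero] at h2
    exact h2.trans (mul_le_mul_of_nonneg_right ((le_abs_self C).trans (by linarith)) (sq_nonneg s))
  refine key z hz hb ?_
  by_contra hcon
  rw [not_le] at hcon
  obtain ⟨Λ, hΛ, hc, -⟩ := c0 q κ hq hκ
  set b : ℝ := max z.im (max 1 (8 / x)) with hb_def
  have hb1 : 1 ≤ b := (le_max_left _ _).trans (le_max_right _ _)
  have hb2 : 8 / x ≤ b := (le_max_right _ _).trans (le_max_right _ _)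
  have him : ∀ η : ℝ, ((z.re : ℂ) + η * I).im = η := fun η => by simp
  have hre : ∀ η : ℝ, Bulk q κ ((z.re : ℂ) + η * I).re := fun η => by simpa using hb
  have hcont := t_cont (π := π) h0 c0 hq hκ hs hs1 hb hz b
  have hpb : 0 < ((z.re : ℂ) + b * I).im := by rw [him]; linarith
  have hXb : ∫ β, ‖uu q (z.re + b * I) (mT s (z.re + b * I) β)‖ ^ 2 ∂envLaw q π ≤ x / 2 := by
    obtain ⟨-, -, g1, -, g2, -⟩ := hc _ hpb.le (hre b)
    have hi := (t_int_bdd (P := envLaw q π) ((t_meas_uu q _).comp (t_meas_mT h0 hs hs1 hpb))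
      fun β => g1 _ (t_im_pos h0 hs hs1 hpb β)).2
    refine (integral_mono hi (integrable_const (x / 2)) fun β => ?_).trans (by simp)
    have g3 := g2 _ (t_im_pos h0 hs hs1 hpb β) hpb (((h0 q s hs hs1).1 _ hpb).2.2 β).2.1
    rw [him] at g3
    refine (pow_le_pow_left₀ (norm_nonneg _) g3 2).trans ?_
    rw [div_pow, div_le_iff₀ (by positivity)]
    rw [div_le_iff₀ hx] at hb2
    have : b ≤ (b ^ 2) ^ 2 := by
      rw [← pow_mul]
      exact le_self_pow₀ hb1 (by norm_num)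
    nlinarith
  have hXa : ∫ β, ‖uu q (z.re + z.im * I) (mT s (z.re + z.im * I) β)‖ ^ 2 ∂envLaw q π =
      ∫ β, ‖uu q z (mT s z β)‖ ^ 2 ∂envLaw q π := by rw [re_add_im]
  obtain ⟨η, hη, e⟩ := intermediate_value_Icc' (le_max_left _ _ : z.im ≤ b) hcont
    (⟨by linarith, by linarith⟩ : x ∈ Set.Icc _ _)
  simp only at e
  have := key (z.re + η * I) (by rw [him]; exact hz.trans_le hη.1) (hre η) e.le
  linarith

theorem t_hyp (h0 : StT0) (hE : StEnv) (c4 : StC4) (hq : 2 ≤ q) (hκ : 0 < κ) :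
    ∃ x B : ℝ, 0 < x ∧ ∀ (s : ℝ) (π : Measure II) [IsProbabilityMeasure π], 0 ≤ s → s ≤ 1 →
      ∀ z : ℂ, 0 < z.im → z.im ≤ 1 → Bulk q κ z.re →
        ∫ β, ‖uu q z (mT s z β)‖ ^ 2 ∂envLaw q π ≤ x →
        ∫ β, hyp (mT s z β) ^ 2 ∂envLaw q π ≤ B := by
  obtain ⟨x, C, hx, h⟩ := c4 q κ 1 hq hκ
  refine ⟨x, max C 0, hx, fun s π _ hs hs1 z hz hz1 hb hle => ?_⟩
  have hm := t_meas_mT (q := q) h0 hs hs1 hz
  have : IsProbabilityMeasure ((envLaw q π).map (mT s z)) :=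
    Measure.isProbabilityMeasure_map hm.aemeasurable
  have e : ∫ Y, ‖uu q z Y‖ ^ 2 ∂(envLaw q π).map (mT s z) =
      ∫ β, ‖uu q z (mT s z β)‖ ^ 2 ∂envLaw q π :=
    integral_map hm.aemeasurable ((t_meas_uu q z).norm.pow_const 2).aestronglyMeasurable
  have h2 := h z s π ((envLaw q π).map (mT s z)) hz hz1 hb hs hs1
    ((ae_map_iff hm.aemeasurable (measurableSet_lt measurable_const measurable_im)).2
      (Eventually.of_forall (t_im_pos h0 hs hs1 hz))) (t_fix1 h0 hs hs1 hE hz) (e ▸ hle)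
  rw [lintegral_map (t_meas_hyp.pow_const 2).ennreal_ofReal hm,
    ← ofReal_integral_eq_lintegral_ofReal (t_int_hyp h0 hs hs1 hz)
      (Eventually.of_forall fun β => sq_nonneg _)] at h2
  exact (ENNReal.ofReal_le_ofReal_iff (le_max_right _ _)).1
    (h2.trans (ENNReal.ofReal_le_ofReal (le_max_left _ _)))

theorem t_hyp_hi (h0 : StT0) (hκ : 0 < κ) (hs : 0 ≤ s) (hs1 : s ≤ 1) (M : ℝ) : ∃ B : ℝ, ∀ z : ℂ,
    1 ≤ z.im → z.im ≤ M → Bulk q κ z.re → ∫ β, hyp (mT s z β) ^ 2 ∂envLaw q π ≤ B := by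
  obtain ⟨B, hB⟩ := t_hyp_bdd (q := q) h0 hs hs1 (2 * √(q : ℝ) + M) one_pos
  refine ⟨B ^ 2, fun z h1 h2 hb => ?_⟩
  have hz : 0 < z.im := one_pos.trans_le h1
  have hn : ‖z‖ ≤ 2 * √(q : ℝ) + M := by
    refine (norm_le_abs_re_add_abs_im z).trans (add_le_add ?_ ?_)
    · unfold Bulk at hb
      linarith
    · rwa [abs_of_pos hz]
  refine (integral_mono (t_int_hyp h0 hs hs1 hz) (integrable_const (B ^ 2)) fun β => ?_).trans (by simp)
  exact pow_le_pow_left₀ (t_hyp_nonneg (t_im_pos h0 hs hs1 hz β)) (hB z h1 hn β) 2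

end Crest.Agent.R166
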