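import Crest.Agent.R166.T.Two

/-! Row 166, block T: the Green function at the centre of a star, uniform convergence of its mean. -/

set_option autoImplicit false

open MeasureTheory ProbabilityTheory Filter Topology Complex
open scoped ENNReal NNReal BigOperators

noncomputable section

namespace Crest.Agent.R166

variable {q : ℕ} {π : Measure II} [IsProbabilityMeasure π] {s κ : ℝ} {z z' : ℂ}

theorem t_den_im {n : ℕ} (s : ℝ) (hz : 0 ≤ z.im) (a : II) {Y : Fin n → ℂ} (hY : ∀ i, 0 < (Y i).im)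
    (i : Fin n) : (Y i).im ≤ (z - s * (a : ℝ) + ∑ j, Y j).im := by
  have h := Finset.single_le_sum (f := fun j => (Y j).im) (fun j _ => (hY j).le) (Finset.mem_univ i)
  simp only [add_im, sub_im, mul_im, ofReal_re, ofReal_im, im_sum]
  linarith

theorem t_psi_le {n : ℕ} (s : ℝ) (hz : 0 ≤ z.im) (a : II) {Y : Fin n → ℂ} (hY : ∀ i, 0 < (Y i).im)
    (i : Fin n) : ‖Psi s z a Y‖ ≤ hyp (Y i) := by
  rw [Psi, norm_neg, norm_inv]
  exact (inv_anti₀ (hY i) ((t_den_im s hz a hY i).trans (im_le_norm _))).trans (t_inv_le_hyp (hY i))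

theorem t_psi_im {n : ℕ} (s : ℝ) (hz : 0 ≤ z.im) (a : II) {Y : Fin n → ℂ} (hY : ∀ i, 0 < (Y i).im)
    (i : Fin n) : 0 < (Psi s z a Y).im := by
  have h := (hY i).trans_le (t_den_im s hz a hY i)
  rw [Psi, neg_im, inv_im, neg_div, neg_neg]
  refine div_pos h (normSq_pos.2 fun e => ?_)
  rw [e] at h
  simp at h

theorem t_psi_sub {n : ℕ} (s : ℝ) (hz : 0 ≤ z.im) (hz' : 0 ≤ z'.im) (a : II) {Y Y' : Fin n → ℂ}
    (hY : ∀ i, 0 < (Y i).im) (hY' : ∀ i, 0 < (Y' i).im) (i : Fin n) {T : ℝ} (hT : 1 ≤ T) :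
    ‖Psi s z a Y - Psi s z' a Y'‖ ≤ 2 * T ^ 2 * (‖z - z'‖ + ∑ j, min 1 ‖Y j - Y' j‖) +
      2 / T * (hyp (Y i) ^ 2 + hyp (Y' i) ^ 2) := by
  have h1 := t_psi_le s hz a hY i
  have h2 := t_psi_le s hz' a hY' i
  have p1 := t_hyp_nonneg (hY i)
  have p2 := t_hyp_nonneg (hY' i)
  have h3 := (norm_sub_le _ _).trans (add_le_add h1 h2)
  have n0 : ∀ j, 0 ≤ min 1 ‖Y j - Y' j‖ := fun j => le_min zero_le_one (norm_nonneg _)
  have n1 : 0 ≤ ‖z - z'‖ + ∑ j, min 1 ‖Y j - Y' j‖ :=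
    add_nonneg (norm_nonneg _) (Finset.sum_nonneg fun j _ => n0 j)
  have hT0 : 0 < T := one_pos.trans_le hT
  by_cases hc : hyp (Y i) ≤ T ∧ hyp (Y' i) ≤ T
  · refine le_add_of_le_of_nonneg ?_ (by positivity)
    by_cases hd : ∀ j, ‖Y j - Y' j‖ ≤ 1
    · simp only [fun j => min_eq_right (hd j)] at n1 ⊢
      have d1 : z - s * (a : ℝ) + ∑ j, Y j ≠ 0 := fun e => by
        have h := (hY i).trans_le (t_den_im s hz a hY i)
        rw [e] at h
        simp at h
      have d2 : z' - s * (a : ℝ) + ∑ j, Y' j ≠ 0 := fun e => by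
        have h := (hY' i).trans_le (t_den_im s hz' a hY' i)
        rw [e] at h
        simp at h
      have e : Psi s z a Y - Psi s z' a Y' =
          Psi s z a Y * Psi s z' a Y' * (z - z' + ∑ j, (Y j - Y' j)) := by
        rw [Finset.sum_sub_distrib, Psi, Psi]
        field_simp
        ring
      rw [e, norm_mul, norm_mul]
      refine mul_le_mul ?_ ((norm_add_le _ _).trans (add_le_add_right (norm_sum_le _ _) _))
        (norm_nonneg _) (by positivity)
      have := mul_le_mul (h1.trans hc.1) (h2.trans hc.2) (norm_nonneg _) hT0.le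
      nlinarith
    · obtain ⟨j, hj⟩ := not_forall.1 hd
      have h4 := Finset.single_le_sum (f := fun j => min 1 ‖Y j - Y' j‖) (fun j _ => n0 j)
        (Finset.mem_univ j)
      rw [min_eq_left (not_le.1 hj).le] at h4
      have h5 : 1 ≤ ‖z - z'‖ + ∑ j, min 1 ‖Y j - Y' j‖ := le_add_of_nonneg_of_le (norm_nonneg _) h4
      have h6 : 2 * T ^ 2 ≤ 2 * T ^ 2 * (‖z - z'‖ + ∑ j, min 1 ‖Y j - Y' j‖) :=
        le_mul_of_one_le_right (by positivity) h5
      nlinarith [hc.1, hc.2]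
  · refine le_add_of_nonneg_of_le (by positivity) (h3.trans ?_)
    rw [div_mul_eq_mul_div, le_div_iff₀ hT0]
    rcases not_and_or.1 hc with h | h <;> rw [not_le] at h <;>
      nlinarith [sq_nonneg (hyp (Y i) - hyp (Y' i))]

theorem t_min (h0 : StT0) (c0 : StC0) (hq : 2 ≤ q) (hκ : 0 < κ) (hs : 0 ≤ s) (hs1 : s ≤ 1)
    {B K : ℝ} {k₀ : ℕ} (hK0 : 0 ≤ K) (hB : THyp q π s κ B) (hK : TTwo q π s κ K k₀) {ε : ℝ} (hε : 0 < ε) :
    ∃ k₁ : ℕ, ∀ E : ℝ, Bulk q κ E → ∀ k l, k₁ ≤ k → k₁ ≤ l →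
      ∫ β, min 1 ‖mT s (zk E k) β - mT s (zk E l) β‖ ∂envLaw q π ≤ ε := by
  obtain ⟨Λ, hΛ, hc, hM⟩ := c0 q κ hq hκ
  set T : ℝ := 1 + 3 * |B| / ε with hT
  have hT1 : 1 ≤ T := le_add_of_nonneg_right (by positivity)
  obtain ⟨δ, hδ, h3⟩ := (hM 1).2 T (ε / 3) (by positivity)
  obtain ⟨k₁, hk₁⟩ := exists_pow_lt_of_lt_one (x := ε * δ / (6 * (K + 1))) (y := (2 : ℝ)⁻¹)
    (by positivity) (by norm_num)
  refine ⟨max k₀ k₁, fun E hb k l hk hl => ?_⟩
  have mk := fun k => t_meas_mT (q := q) h0 hs hs1 (t_zk_pos E k)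
  have ik := fun k => t_im_pos (q := q) h0 hs hs1 (t_zk_pos E k)
  have gE := (hc (E : ℂ) (by simp) (by simpa using hb)).2.2.1
  have j1 : Integrable (fun β => δ⁻¹ * ‖uu q E (mT s (zk E k) β) - uu q E (mT s (zk E l) β)‖)
      (envLaw q π) :=
    (t_int_bdd (((t_meas_uu q E).comp (mk k)).sub ((t_meas_uu q E).comp (mk l)))
      fun β => (norm_sub_le _ _).trans (add_le_add (gE _ (ik k β)) (gE _ (ik l β)))).1.const_mul _
  have j2 : Integrable (fun β => T⁻¹ * hyp (mT s (zk E l) β) ^ 2) (envLaw q π) :=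
    (t_int_hyp h0 hs hs1 (t_zk_pos E l)).const_mul _
  have j3 : Integrable (fun β => δ⁻¹ * ‖uu q E (mT s (zk E k) β) - uu q E (mT s (zk E l) β)‖ +
      T⁻¹ * hyp (mT s (zk E l) β) ^ 2) (envLaw q π) := j1.add j2
  refine (integral_mono_of_nonneg (Eventually.of_forall fun β => le_min zero_le_one (norm_nonneg _))
    (j3.add (integrable_const (ε / 3))) (Eventually.of_forall fun β => ?_)).trans ?_
  · simp only [Pi.add_apply]
    have n1 : 0 ≤ δ⁻¹ * ‖uu q E (mT s (zk E k) β) - uu q E (mT s (zk E l) β)‖ := by positivity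
    have n2 : 0 ≤ T⁻¹ * hyp (mT s (zk E l) β) ^ 2 := by positivity
    by_cases c1 : hyp (mT s (zk E l) β) ≤ T
    · by_cases c2 : ‖uu q E (mT s (zk E k) β) - uu q E (mT s (zk E l) β)‖ ≤ δ
      · have := h3 (E : ℂ) (by simp) (by simp) (by simpa using hb) _ _ (ik k β) (ik l β) c1 c2
        linarith [min_le_right 1 ‖mT s (zk E k) β - mT s (zk E l) β‖]
      · have : 1 ≤ δ⁻¹ * ‖uu q E (mT s (zk E k) β) - uu q E (mT s (zk E l) β)‖ := by
          rw [le_inv_mul_iff₀ hδ, mul_one]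
          exact (not_le.1 c2).le
        linarith [min_le_left 1 ‖mT s (zk E k) β - mT s (zk E l) β‖]
    · have : 1 ≤ T⁻¹ * hyp (mT s (zk E l) β) ^ 2 := by
        rw [le_inv_mul_iff₀ (by linarith), mul_one]
        nlinarith [not_le.1 c1]
      linarith [min_le_left 1 ‖mT s (zk E k) β - mT s (zk E l) β‖]
  · simp only [Pi.add_apply]
    rw [integral_add j3 (integrable_const _), integral_add j1 j2, integral_const_mul, integral_const_mul]
    simp only [integral_const, probReal_univ, smul_eq_mul]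
    have hpow : ∀ j, max k₀ k₁ ≤ j → (2 : ℝ)⁻¹ ^ j ≤ ε * δ / (6 * (K + 1)) := fun j hj =>
      (pow_le_pow_of_le_one (by norm_num) (by norm_num) ((le_max_right _ _).trans hj)).trans hk₁.le
    have a1 := hK E hb k l ((le_max_left _ _).trans hk) ((le_max_left _ _).trans hl)
    have a2 := (hB E hb l).trans (le_abs_self B)
    have a3 := hpow k hk
    have a4 := hpow l hl
    rw [le_div_iff₀ (by positivity)] at a3 a4
    have b1 : δ⁻¹ * ∫ β, ‖uu q E (mT s (zk E k) β) - uu q E (mT s (zk E l) β)‖ ∂envLaw q π ≤ ε / 3 := by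
      rw [inv_mul_le_iff₀ hδ]
      nlinarith [pow_pos (by norm_num : (0 : ℝ) < 2⁻¹) k, pow_pos (by norm_num : (0 : ℝ) < 2⁻¹) l]
    have b2 : T⁻¹ * ∫ β, hyp (mT s (zk E l) β) ^ 2 ∂envLaw q π ≤ ε / 3 := by
      rw [inv_mul_le_iff₀ (by linarith), hT]
      have : (1 + 3 * |B| / ε) * (ε / 3) = ε / 3 + |B| := by field_simp
      linarith
    linarith

theorem t_meas_star (s : ℝ) (z : ℂ) {m : Env q → ℂ} (hm : Measurable m) :
    Measurable fun e : SEnv q => Psi s z e.1 fun i => m (e.2 i) := by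
  unfold Psi
  fun_prop

/-- the centre value along `zk` -/
def tG (s E : ℝ) (k : ℕ) (e : SEnv q) : ℂ := Psi s (zk E k) e.1 fun i => mT s (zk E k) (e.2 i)

theorem t_meas_tG (h0 : StT0) (hs : 0 ≤ s) (hs1 : s ≤ 1) (E : ℝ) (k : ℕ) :
    Measurable (tG (q := q) s E k) :=
  t_meas_star s _ (t_meas_mT h0 hs hs1 (t_zk_pos E k))

theorem t_int_tG (h0 : StT0) (hs : 0 ≤ s) (hs1 : s ≤ 1) (E : ℝ) (k : ℕ) :
    Integrable (tG (q := q) s E k) (starLaw q π) := by
  obtain ⟨B, hB⟩ := t_hyp_bdd (q := q) h0 hs hs1 ‖zk E k‖ (t_zk_pos E k)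
  exact Integrable.of_bound (t_meas_tG h0 hs hs1 E k).aestronglyMeasurable B
    (Eventually.of_forall fun e => (t_psi_le s (t_zk_pos E k).le e.1
      (fun i => t_im_pos h0 hs hs1 (t_zk_pos E k) (e.2 i)) 0).trans (hB _ le_rfl le_rfl _))

theorem t_star_cauchy (h0 : StT0) (c0 : StC0) (hq : 2 ≤ q) (hκ : 0 < κ) (hs : 0 ≤ s) (hs1 : s ≤ 1)
    {B K : ℝ} {k₀ : ℕ} (hK0 : 0 ≤ K) (hB : THyp q π s κ B) (hK : TTwo q π s κ K k₀) {ε : ℝ} (hε : 0 < ε) :
    ∃ k₁ : ℕ, ∀ E : ℝ, Bulk q κ E → ∀ k l, k₁ ≤ k → k₁ ≤ l →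
      ∫ e, ‖tG s E k e - tG s E l e‖ ∂starLaw q π ≤ ε := by
  set T : ℝ := 1 + 8 * |B| / ε with hT
  have hT1 : 1 ≤ T := le_add_of_nonneg_right (by positivity)
  set η : ℝ := ε / (4 * T ^ 2 * (q + 3)) with hη
  have hη0 : 0 < η := by positivity
  obtain ⟨k₁, h1⟩ := t_min h0 c0 hq hκ hs hs1 hK0 hB hK hη0
  obtain ⟨k₂, hk₂⟩ := exists_pow_lt_of_lt_one (x := η) (y := (2 : ℝ)⁻¹) hη0 (by norm_num)
  refine ⟨max k₁ k₂, fun E hb k l hk hl => ?_⟩
  have mk := fun k => t_meas_mT (q := q) h0 hs hs1 (t_zk_pos E k)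
  have ik := fun k => t_im_pos (q := q) h0 hs hs1 (t_zk_pos E k)
  have mm : Measurable fun β : Env q => min 1 ‖mT s (zk E k) β - mT s (zk E l) β‖ :=
    measurable_const.min ((mk k).sub (mk l)).norm
  have i0 : Integrable (fun β : Env q => min 1 ‖mT s (zk E k) β - mT s (zk E l) β‖) (envLaw q π) :=
    Integrable.of_bound mm.aestronglyMeasurable 1 (Eventually.of_forall fun β => by
      rw [Real.norm_of_nonneg (le_min zero_le_one (norm_nonneg _))]; exact min_le_left _ _)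
  have i1 : ∀ j, Integrable (fun e : SEnv q => min 1 ‖mT s (zk E k) (e.2 j) - mT s (zk E l) (e.2 j)‖)
      (starLaw q π) := fun j => (t_star_eval j).integrable_comp_of_integrable i0
  have e1 : ∀ j, ∫ e : SEnv q, min 1 ‖mT s (zk E k) (e.2 j) - mT s (zk E l) (e.2 j)‖ ∂starLaw q π ≤ η :=
    fun j => by
      refine le_trans (le_of_eq ?_) (h1 E hb k l ((le_max_left _ _).trans hk) ((le_max_left _ _).trans hl))
      rw [← (t_star_eval (π := π) j).map_eq, integral_map (t_star_eval (π := π) j).measurable.aemeasurable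
        mm.aestronglyMeasurable]
  have i2 : ∀ j, Integrable (fun e : SEnv q => hyp (mT s (zk E j) (e.2 0)) ^ 2) (starLaw q π) :=
    fun j => (t_star_eval 0).integrable_comp_of_integrable (t_int_hyp h0 hs hs1 (t_zk_pos E j))
  have e2 : ∀ j, ∫ e : SEnv q, hyp (mT s (zk E j) (e.2 0)) ^ 2 ∂starLaw q π ≤ |B| := fun j => by
    refine le_trans (le_of_eq ?_) ((hB E hb j).trans (le_abs_self B))
    have mh : Measurable fun β : Env q => hyp (mT s (zk E j) β) ^ 2 := (t_meas_hyp.comp (mk j)).pow_const 2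
    rw [← (t_star_eval (π := π) 0).map_eq, integral_map (t_star_eval (π := π) 0).measurable.aemeasurable
      mh.aestronglyMeasurable]
  have j1 : Integrable (fun e : SEnv q =>
      ∑ j, min 1 ‖mT s (zk E k) (e.2 j) - mT s (zk E l) (e.2 j)‖) (starLaw q π) :=
    integrable_finsetSum _ fun j _ => i1 j
  have j2 : Integrable (fun e : SEnv q => 2 * T ^ 2 * (‖zk E k - zk E l‖ +
      ∑ j, min 1 ‖mT s (zk E k) (e.2 j) - mT s (zk E l) (e.2 j)‖)) (starLaw q π) :=
    ((integrable_const _).add j1).const_mul _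
  have j3 : Integrable (fun e : SEnv q => 2 / T *
      (hyp (mT s (zk E k) (e.2 0)) ^ 2 + hyp (mT s (zk E l) (e.2 0)) ^ 2)) (starLaw q π) :=
    ((i2 k).add (i2 l)).const_mul _
  refine (integral_mono_of_nonneg (Eventually.of_forall fun e => norm_nonneg _) (j2.add j3)
    (Eventually.of_forall fun e => t_psi_sub s (t_zk_pos E k).le (t_zk_pos E l).le e.1
      (fun i => ik k _) (fun i => ik l _) 0 hT1)).trans ?_
  simp only [Pi.add_apply]
  rw [integral_add j2 j3, integral_const_mul, integral_const_mul, integral_add (integrable_const _) j1,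
    integral_add (i2 k) (i2 l), integral_finsetSum _ fun j _ => i1 j]
  simp only [integral_const, probReal_univ, smul_eq_mul]
  have hpow : ∀ j, max k₁ k₂ ≤ j → (2 : ℝ)⁻¹ ^ j ≤ η := fun j hj =>
    (pow_le_pow_of_le_one (by norm_num) (by norm_num) ((le_max_right _ _).trans hj)).trans hk₂.le
  have a1 := (t_zk_dist E k l).trans (add_le_add (hpow k hk) (hpow l hl))
  have a2 := Finset.sum_le_sum (s := Finset.univ) fun j _ => e1 j
  rw [Finset.sum_const, Finset.card_univ, Fintype.card_fin, nsmul_eq_mul] at a2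
  push_cast at a2
  have b1 : 2 * T ^ 2 * ((q + 3) * η) = ε / 2 := by
    rw [hη]
    field_simp
    norm_num
  have b2 : 2 / T * (|B| + |B|) ≤ ε / 2 := by
    rw [div_mul_eq_mul_div, div_le_iff₀ (by linarith), hT]
    have : ε / 2 * (1 + 8 * |B| / ε) = ε / 2 + 4 * |B| := by field_simp; ring
    linarith
  refine (add_le_add (mul_le_mul_of_nonneg_left (show _ ≤ (q + 3) * η by linarith) (by positivity))
    (mul_le_mul_of_nonneg_left (add_le_add (e2 k) (e2 l)) (by positivity))).trans ?_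
  linarith

end Crest.Agent.R166
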