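import Crest.Agent.R166.T.Small

/-! Row 166, block T: two-copy estimate, almost sure convergence along `zk`. -/

set_option autoImplicit false

open MeasureTheory ProbabilityTheory Filter Topology Complex
open scoped ENNReal NNReal BigOperators

noncomputable section

namespace Crest.Agent.R166

variable {q : ℕ} {π : Measure II} [IsProbabilityMeasure π] {s κ : ℝ} {z z' : ℂ}

theorem t_two (h0 : StT0) (hE : StEnv) (c0 : StC0) (c2 : StC2) (hq : 2 ≤ q) (hκ : 0 < κ) :
    ∃ (x K : ℝ) (k₀ : ℕ), 0 < x ∧ 0 ≤ K ∧ ∀ (s : ℝ) (π : Measure II) [IsProbabilityMeasure π],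
      0 ≤ s → s ≤ 1 → s ≤ x → (∀ z : ℂ, 0 < z.im → Bulk q κ z.re →
        ∫ β, ‖uu q z (mT s z β)‖ ^ 2 ∂envLaw q π ≤ x) → TTwo q π s κ K k₀ := by
  obtain ⟨Λ, hΛ, hc, -⟩ := c0 q κ hq hκ
  obtain ⟨x, C, hx, h2⟩ := c2 q κ 1 hq hκ
  obtain ⟨k₀, hk₀⟩ := exists_pow_lt_of_lt_one (x := min (x / 2) (min 1 (x / (16 * Λ ^ 2))))
    (y := (2 : ℝ)⁻¹) (by positivity) (by norm_num)
  refine ⟨x / 4, (|C| + 2) / 2 + 2 * Λ, k₀, by positivity, by positivity,
    fun s π _ hs hs1 hsx hsm E hb k l hk hl => ?_⟩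
  have hpow : ∀ j, k₀ ≤ j → (2 : ℝ)⁻¹ ^ j ≤ min (x / 2) (min 1 (x / (16 * Λ ^ 2))) := fun j hj =>
    (pow_le_pow_of_le_one (by norm_num) (by norm_num) hj).trans hk₀.le
  have hbz : ∀ j, Bulk q κ (zk E j).re := fun j => by rwa [t_zk_re]
  have hpk := t_zk_pos E k
  have hpl := t_zk_pos E l
  have mk := t_meas_mT (q := q) h0 hs hs1 hpk
  have ml := t_meas_mT (q := q) h0 hs hs1 hpl
  have ik := t_im_pos (q := q) h0 hs hs1 hpk
  have il := t_im_pos (q := q) h0 hs hs1 hpl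
  set r : ℝ := 2⁻¹ ^ k + 2⁻¹ ^ l with hr
  have hr0 : 0 < r := by positivity
  have hd : ‖zk E k - zk E l‖ ≤ r := t_zk_dist E k l
  have hrx : r ≤ x := by
    linarith [(hpow k hk).trans (min_le_left _ _), (hpow l hl).trans (min_le_left _ _)]
  have hr2 : Λ ^ 2 * r ^ 2 ≤ x / 4 := by
    have a1 := (hpow k hk).trans (min_le_right _ _)
    have a2 := (hpow l hl).trans (min_le_right _ _)
    have a3 : r ≤ 2 := by linarith [a1.trans (min_le_left _ _), a2.trans (min_le_left _ _)]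
    have a4 : r ≤ 2 * (x / (16 * Λ ^ 2)) := by
      linarith [a1.trans (min_le_right _ _), a2.trans (min_le_right _ _)]
    rw [← mul_div_assoc, le_div_iff₀ (by positivity)] at a4
    nlinarith [mul_nonneg hr0.le (sq_nonneg Λ)]
  obtain ⟨-, -, g1, -, -, g2⟩ := hc _ hpk.le (hbz k)
  have g3 := (hc _ hpl.le (hbz l)).2.2.1
  have hm := mk.prodMk ml
  have : IsProbabilityMeasure ((envLaw q π).map fun β => (mT s (zk E k) β, mT s (zk E l) β)) :=
    Measure.isProbabilityMeasure_map hm.aemeasurable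
  have mu := t_meas_uu q (zk E k)
  have e1 : ∫ p, ‖uu q (zk E k) p.1‖ ^ 2 ∂(envLaw q π).map
      (fun β => (mT s (zk E k) β, mT s (zk E l) β)) =
      ∫ β, ‖uu q (zk E k) (mT s (zk E k) β)‖ ^ 2 ∂envLaw q π :=
    integral_map hm.aemeasurable ((mu.comp measurable_fst).norm.pow_const 2).aestronglyMeasurable
  have e2 : ∫ p, ‖uu q (zk E k) p.2‖ ^ 2 ∂(envLaw q π).map
      (fun β => (mT s (zk E k) β, mT s (zk E l) β)) =
      ∫ β, ‖uu q (zk E k) (mT s (zk E l) β)‖ ^ 2 ∂envLaw q π :=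
    integral_map hm.aemeasurable ((mu.comp measurable_snd).norm.pow_const 2).aestronglyMeasurable
  have e3 : ∫ p, ‖uu q (zk E k) p.1 - uu q (zk E k) p.2‖ ^ 2 ∂(envLaw q π).map
      (fun β => (mT s (zk E k) β, mT s (zk E l) β)) =
      ∫ β, ‖uu q (zk E k) (mT s (zk E k) β) - uu q (zk E k) (mT s (zk E l) β)‖ ^ 2 ∂envLaw q π :=
    integral_map hm.aemeasurable
      (((mu.comp measurable_fst).sub (mu.comp measurable_snd)).norm.pow_const 2).aestronglyMeasurable
  have b2 : ∫ β, ‖uu q (zk E k) (mT s (zk E l) β)‖ ^ 2 ∂envLaw q π ≤ x := by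
    have j1 := (t_int_bdd (P := envLaw q π) (mu.comp ml) fun β => g1 _ (il β)).2
    have j2 := (t_int_bdd (P := envLaw q π) ((t_meas_uu q _).comp ml) fun β => g3 _ (il β)).2
    have j3 : Integrable (fun β => 2 * ‖uu q (zk E l) (mT s (zk E l) β)‖ ^ 2) (envLaw q π) :=
      j2.const_mul 2
    refine (integral_mono j1 (j3.add (integrable_const (x / 2))) fun β => ?_).trans ?_
    · have a1 := ((g2 _ hpl.le (hbz l)).2 _ (il β)).trans
        (mul_le_mul_of_nonneg_left hd (by linarith))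
      have a2 := (norm_le_norm_add_norm_sub' (uu q (zk E k) (mT s (zk E l) β))
        (uu q (zk E l) (mT s (zk E l) β))).trans (add_le_add_right a1 _)
      refine (pow_le_pow_left₀ (norm_nonneg _) a2 2).trans ?_
      simp only [Pi.add_apply]
      nlinarith [sq_nonneg (‖uu q (zk E l) (mT s (zk E l) β)‖ - Λ * r)]
    · simp only [Pi.add_apply]
      rw [integral_add j3 (integrable_const _), integral_const_mul]
      have := hsm _ hpl (hbz l)
      simp only [integral_const, probReal_univ, smul_eq_mul]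
      linarith
  obtain ⟨J, θ, Λ', hθ, h3⟩ := h2 (r ^ 2) (by positivity)
  obtain ⟨F, -, h4⟩ := h3 _ hpk (t_zk_le E k) (hbz k)
  have h5 := h4 (zk E l) s π ((envLaw q π).map fun β => (mT s (zk E k) β, mT s (zk E l) β)) hpl
    (hd.trans hrx) hs (by linarith)
    ((ae_map_iff hm.aemeasurable ((measurableSet_lt measurable_const (measurable_im.comp measurable_fst)).inter
      (measurableSet_lt measurable_const (measurable_im.comp measurable_snd)))).2
      (Eventually.of_forall fun β => ⟨ik β, il β⟩))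
    (by rw [e1]; linarith [hsm _ hpk (hbz k)]) (by rw [e2]; exact b2)
    (fun j => by rw [t_fix2 h0 hs hs1 hE hpk hpl]; simpa using hθ.le)
  rw [e3] at h5
  have h6 : C * ‖zk E k - zk E l‖ ^ 2 ≤ |C| * r ^ 2 :=
    mul_le_mul (le_abs_self C) (pow_le_pow_left₀ (norm_nonneg _) hd 2) (sq_nonneg _) (abs_nonneg C)
  have gE := (hc (E : ℂ) (by simp) (by simpa using hb)).2.2.1
  have j1 := (t_int_bdd (P := envLaw q π) (((t_meas_uu q E).comp mk).sub ((t_meas_uu q E).comp ml))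
    fun β => (norm_sub_le _ _).trans (add_le_add (gE _ (ik β)) (gE _ (il β)))).1
  have j2 := (t_int_bdd (P := envLaw q π) ((mu.comp mk).sub (mu.comp ml))
    fun β => (norm_sub_le _ _).trans (add_le_add (g1 _ (ik β)) (g1 _ (il β)))).2
  have j3 : Integrable (fun β => (2 * r)⁻¹ *
      ‖uu q (zk E k) (mT s (zk E k) β) - uu q (zk E k) (mT s (zk E l) β)‖ ^ 2) (envLaw q π) :=
    j2.const_mul _
  refine (integral_mono j1 (j3.add (integrable_const (r / 2 + 2 * Λ * r))) fun β => ?_).trans ?_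
  · have g4 := (g2 (E : ℂ) (by simp) (by simpa using hb)).2
    have a1 := g4 _ (ik β)
    have a2 := g4 _ (il β)
    rw [t_zk_sub] at a1 a2
    have a3 : Λ * 2⁻¹ ^ k ≤ Λ * r :=
      mul_le_mul_of_nonneg_left (le_add_of_nonneg_right (by positivity)) (by linarith)
    simp only [Pi.add_apply, Pi.sub_apply, Function.comp_apply]
    generalize uu q (zk E k) (mT s (zk E k) β) = a at *
    generalize uu q (zk E k) (mT s (zk E l) β) = b at *
    generalize uu q E (mT s (zk E k) β) = a' at *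
    generalize uu q E (mT s (zk E l) β) = b' at *
    have a4 : ‖a' - b'‖ ≤ ‖a - a'‖ + ‖a - b‖ + ‖b - b'‖ := by
      rw [norm_sub_rev a a']
      exact (norm_sub_le_norm_sub_add_norm_sub _ b _).trans
        (add_le_add_left (norm_sub_le_norm_sub_add_norm_sub _ a _) _)
    have a5 : ‖a - b‖ ≤ (2 * r)⁻¹ * ‖a - b‖ ^ 2 + r / 2 := by
      rw [inv_mul_eq_div, div_add' _ _ _ (by positivity), le_div_iff₀ (by positivity)]
      nlinarith [sq_nonneg (‖a - b‖ - r)]
    linarith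
  · simp only [Pi.add_apply]
    rw [integral_add j3 (integrable_const _), integral_const_mul]
    simp only [integral_const, probReal_univ, smul_eq_mul]
    have : (2 * r)⁻¹ * ∫ β, ‖uu q (zk E k) (mT s (zk E k) β) - uu q (zk E k) (mT s (zk E l) β)‖ ^ 2
        ∂envLaw q π ≤ (|C| + 1) / 2 * r := by
      rw [inv_mul_le_iff₀ (by positivity)]
      nlinarith
    linarith

theorem t_ae_cauchy {X : Type} [MeasurableSpace X] {P : Measure X} {V : ℕ → X → ℂ}
    (hm : ∀ k, Measurable (V k)) (hi : ∀ k l, Integrable (fun x => ‖V k x - V l x‖) P) {K : ℝ} {k₀ : ℕ}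
    (h : ∀ k l, k₀ ≤ k → k₀ ≤ l → ∫ x, ‖V k x - V l x‖ ∂P ≤ K * (2⁻¹ ^ k + 2⁻¹ ^ l)) :
    ∀ᵐ x ∂P, CauchySeq fun k => V k x := by
  have hmk : ∀ k, Measurable fun x => ‖V (k + k₀) x - V (k + 1 + k₀) x‖ₑ := fun k =>
    ((hm _).sub (hm _)).enorm
  have h1 : ∫⁻ x, ∑' k, ‖V (k + k₀) x - V (k + 1 + k₀) x‖ₑ ∂P ≠ ∞ := by
    rw [lintegral_tsum fun k => (hmk k).aemeasurable]
    have hs : Summable fun k : ℕ => K * (2⁻¹ ^ (k + k₀) + 2⁻¹ ^ (k + 1 + k₀) : ℝ) := by
      have := summable_geometric_of_lt_one (r := (2 : ℝ)⁻¹) (by norm_num) (by norm_num)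
      simp only [pow_add]
      exact ((this.mul_right _).add ((this.mul_right _).mul_right _)).mul_left K
    refine ne_top_of_le_ne_top hs.tsum_ofReal_ne_top (ENNReal.tsum_le_tsum fun k => ?_)
    simp only [← ofReal_norm]
    rw [← ofReal_integral_eq_lintegral_ofReal (hi _ _) (Eventually.of_forall fun x => norm_nonneg _)]
    exact ENNReal.ofReal_le_ofReal (h _ _ (by omega) (by omega))
  filter_upwards [ae_lt_top (Measurable.tsum hmk) h1] with x hx
  rw [← cauchySeq_shift k₀]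
  exact cauchySeq_of_edist_le_of_tsum_ne_top _ (fun k => (edist_eq_enorm_sub _ _).le) hx.ne

theorem t_ae_freq {X : Type} [MeasurableSpace X] {P : Measure X} {f : ℕ → X → ℝ}
    (hm : ∀ k, Measurable (f k)) (hi : ∀ k, Integrable (fun x => f k x ^ 2) P) {B : ℝ}
    (h : ∀ k, ∫ x, f k x ^ 2 ∂P ≤ B) : ∀ᵐ x ∂P, ∃ T : ℝ, ∃ᶠ k in atTop, f k x ≤ T := by
  have hmk : ∀ k, Measurable fun x => ENNReal.ofReal (f k x ^ 2) := fun k =>
    ((hm k).pow_const 2).ennreal_ofReal
  have h1 : ∫⁻ x, liminf (fun k => ENNReal.ofReal (f k x ^ 2)) atTop ∂P ≠ ∞ := by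
    refine ne_top_of_le_ne_top (ENNReal.ofReal_ne_top (r := B)) ((lintegral_liminf_le hmk).trans ?_)
    refine liminf_le_of_frequently_le' (Eventually.of_forall fun k => ?_).frequently
    rw [← ofReal_integral_eq_lintegral_ofReal (hi k) (Eventually.of_forall fun x => sq_nonneg _)]
    exact ENNReal.ofReal_le_ofReal (h k)
  filter_upwards [ae_lt_top (Measurable.liminf hmk) h1] with x hx
  obtain ⟨T, hT⟩ := ENNReal.lt_iff_exists_nnreal_btwn.1 hx
  refine ⟨1 + T, (frequently_lt_of_liminf_lt (by isBoundedDefault) hT.1).mono fun k hk => ?_⟩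
  rw [ENNReal.ofReal_lt_coe_iff (sq_nonneg _)] at hk
  nlinarith [sq_nonneg (f k x - 1), T.2]

theorem t_conv (h0 : StT0) (c0 : StC0) (hq : 2 ≤ q) (hκ : 0 < κ) (hs : 0 ≤ s) (hs1 : s ≤ 1)
    {B K : ℝ} {k₀ : ℕ} (hB : THyp q π s κ B) (hK : TTwo q π s κ K k₀) {E : ℝ} (hb : Bulk q κ E) :
    ∀ᵐ β ∂envLaw q π, Tendsto (fun k => mT s (zk E k) β) atTop (𝓝 (mB s E β)) ∧
      0 < (mB s E β).im := by
  obtain ⟨Λ, hΛ, hc, hM⟩ := c0 q κ hq hκ
  have mk := fun k => t_meas_mT (q := q) h0 hs hs1 (t_zk_pos E k)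
  have ik := fun k => t_im_pos (q := q) h0 hs hs1 (t_zk_pos E k)
  have gE := (hc (E : ℂ) (by simp) (by simpa using hb)).2.2.1
  have h1 := t_ae_cauchy (P := envLaw q π) (V := fun k β => uu q E (mT s (zk E k) β))
    (fun k => (t_meas_uu q E).comp (mk k))
    (fun k l => (t_int_bdd (((t_meas_uu q E).comp (mk k)).sub ((t_meas_uu q E).comp (mk l)))
      fun β => (norm_sub_le _ _).trans (add_le_add (gE _ (ik k β)) (gE _ (ik l β)))).1) (hK E hb)
  have h2 := t_ae_freq (P := envLaw q π) (f := fun k β => hyp (mT s (zk E k) β))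
    (fun k => t_meas_hyp.comp (mk k)) (fun k => t_int_hyp h0 hs hs1 (t_zk_pos E k)) (hB E hb)
  filter_upwards [h1, h2] with β hV ⟨T, hT⟩
  have hC : CauchySeq fun k => mT s (zk E k) β := by
    rw [Metric.cauchySeq_iff]
    intro ε hε
    obtain ⟨δ, hδ, h3⟩ := (hM 1).2 T (ε / 3) (by positivity)
    obtain ⟨N, hN⟩ := Metric.cauchySeq_iff.1 hV δ hδ
    obtain ⟨l, hl, hl'⟩ := frequently_atTop.1 hT N
    have h4 : ∀ k, N ≤ k → ‖mT s (zk E k) β - mT s (zk E l) β‖ ≤ ε / 3 := fun k hk =>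
      h3 (E : ℂ) (by simp) (by simp) (by simpa using hb) _ _ (ik k β) (ik l β) hl'
        (by rw [← dist_eq_norm]; exact (hN k hk l hl).le)
    refine ⟨N, fun k hk k' hk' => ?_⟩
    have := dist_triangle_right (mT s (zk E k) β) (mT s (zk E k') β) (mT s (zk E l) β)
    rw [dist_eq_norm _ (mT s (zk E l) β), dist_eq_norm _ (mT s (zk E l) β)] at this
    linarith [h4 k hk, h4 k' hk']
  have hlim : Tendsto (fun k => mT s (zk E k) β) atTop (𝓝 (mB s E β)) := hC.tendsto_limUnder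
  refine ⟨hlim, ?_⟩
  obtain ⟨l, hl⟩ := hT.exists
  have hT0 : 0 < T := (inv_pos.2 (ik l β)).trans_le ((t_inv_le_hyp (ik l β)).trans hl)
  refine (inv_pos.2 hT0).trans_le (isClosed_Ici.mem_of_frequently_of_tendsto (hT.mono fun k hk => ?_)
    ((continuous_im.tendsto _).comp hlim))
  exact inv_le_of_inv_le₀ (ik k β) ((t_inv_le_hyp (ik k β)).trans hk)

end Crest.Agent.R166
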